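import Mathlib

/-! Approximate Zarantonello fixed point, and a block identity. -/

set_option autoImplicit false

open MeasureTheory Filter Topology

namespace Crest.Agent.H5.RI

variable {X : Type*} [MeasurableSpace X]

theorem integrable_bdd (m : Measure X) [IsFiniteMeasure m] {g : X → ℝ} (hg : Measurable g) (C : ℝ)
    (h : ∀ x, |g x| ≤ C) : Integrable g m :=
  Integrable.of_bound hg.aestronglyMeasurable C (Eventually.of_forall h)

/-- approximate solution of `ε s + F s = 0` for a monotone Lipschitz `F` -/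
theorem zar (m : Measure X) [IsFiniteMeasure m] (F : (X → ℝ) → X → ℝ) {ε c : ℝ} (hε : 0 < ε)
    (hc : ε ^ 2 ≤ c) (hFm : ∀ s, Measurable s → (∀ x, |s x| ≤ 1 / ε) → Measurable (F s))
    (hFb : ∀ s x, |F s x| ≤ 1)
    (mono : ∀ s s', Measurable s → (∀ x, |s x| ≤ 1 / ε) → Measurable s' → (∀ x, |s' x| ≤ 1 / ε) →
      0 ≤ ∫ x, (F s x - F s' x) * (s x - s' x) ∂m)
    (lip : ∀ s s', Measurable s → (∀ x, |s x| ≤ 1 / ε) → Measurable s' → (∀ x, |s' x| ≤ 1 / ε) →
      ∫ x, (F s x - F s' x) ^ 2 ∂m ≤ c * ∫ x, (s x - s' x) ^ 2 ∂m)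
    {δ : ℝ} (hδ : 0 < δ) :
    ∃ s, Measurable s ∧ (∀ x, |s x| ≤ 1 / ε) ∧ ∫ x, (ε * s x + F s x) ^ 2 ∂m ≤ δ := by
  have hc0 : 0 < c := (sq_pos_of_pos hε).trans_le hc
  set α := ε / (2 * c) with hα
  have hα0 : 0 < α := by positivity
  have hαc : α * c = ε / 2 := by rw [hα]; field_simp
  have hαε : α * ε ≤ 1 / 2 := by
    rw [hα, div_mul_eq_mul_div, div_le_iff₀ (by positivity)]; nlinarith
  let Ψ : (X → ℝ) → X → ℝ := fun s x => s x - α * (ε * s x + F s x)
  have hΨ : ∀ s, Measurable s → (∀ x, |s x| ≤ 1 / ε) →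
      Measurable (Ψ s) ∧ ∀ x, |Ψ s x| ≤ 1 / ε := fun s hs hb => by
    refine ⟨hs.sub (((hs.const_mul ε).add (hFm s hs hb)).const_mul α), fun x => ?_⟩
    have e : Ψ s x = (1 - α * ε) * s x - α * F s x := by simp only [Ψ]; ring
    have h1 : |(1 - α * ε) * s x| ≤ (1 - α * ε) * (1 / ε) := by
      rw [abs_mul, abs_of_nonneg (by linarith)]
      exact mul_le_mul_of_nonneg_left (hb x) (by linarith)
    have h2 : |α * F s x| ≤ α := by
      rw [abs_mul, abs_of_pos hα0]; exact mul_le_of_le_one_right hα0.le (hFb s x)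
    have h3 : (1 - α * ε) * (1 / ε) + α = 1 / ε := by field_simp; ring
    rw [e]
    exact (abs_sub _ _).trans (by linarith)
  let u : ℕ → X → ℝ := fun n => Ψ^[n] fun _ => 0
  have hu : ∀ n, Measurable (u n) ∧ ∀ x, |u n x| ≤ 1 / ε := fun n => by
    induction n with
    | zero => exact ⟨measurable_const, fun x => by simp [u, hε.le]⟩
    | succ n ih =>
      simp only [u, Function.iterate_succ_apply']
      exact hΨ _ ih.1 ih.2
  have us : ∀ n, u (n + 1) = Ψ (u n) := fun n => Function.iterate_succ_apply' _ _ _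
  let D : ℕ → ℝ := fun n => ∫ x, (ε * u n x + F (u n) x) ^ 2 ∂m
  set q := 1 - α * ε with hq
  have hq0 : 0 ≤ q := by rw [hq]; linarith
  have hq1 : q < 1 := by rw [hq]; have := mul_pos hα0 hε; linarith
  have step : ∀ n, D (n + 1) ≤ q * D n := fun n => by
    obtain ⟨m0, b0⟩ := hu n
    obtain ⟨m1, b1⟩ := hu (n + 1)
    have f0 := hFm _ m0 b0
    have f1 := hFm _ m1 b1
    set a : X → ℝ := fun x => u (n + 1) x - u n x with ha
    set b : X → ℝ := fun x => F (u (n + 1)) x - F (u n) x with hb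
    have am : Measurable a := m1.sub m0
    have bm : Measurable b := f1.sub f0
    have ab : ∀ x, |a x| ≤ 2 / ε := fun x =>
      (abs_sub _ _).trans (by have := b0 x; have := b1 x; rw [show 2 / ε = 1 / ε + 1 / ε by ring]; linarith)
    have bb : ∀ x, |b x| ≤ 2 := fun x =>
      (abs_sub _ _).trans (by have := hFb (u n) x; have := hFb (u (n + 1)) x; linarith)
    have iaa : Integrable (fun x => a x ^ 2) m := integrable_bdd m (am.pow_const 2) ((2 / ε) ^ 2)
      fun x => by rw [abs_pow]; exact pow_le_pow_left₀ (abs_nonneg _) (ab x) 2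
    have ibb : Integrable (fun x => b x ^ 2) m := integrable_bdd m (bm.pow_const 2) (2 ^ 2)
      fun x => by rw [abs_pow]; exact pow_le_pow_left₀ (abs_nonneg _) (bb x) 2
    have iab : Integrable (fun x => b x * a x) m := integrable_bdd m (bm.mul am) (2 * (2 / ε))
      fun x => by rw [abs_mul]; exact mul_le_mul (bb x) (ab x) (abs_nonneg _) (by norm_num)
    have e0 : ∀ x, a x = -α * (ε * u n x + F (u n) x) := fun x => by
      simp only [ha, us n, Ψ]; ring
    have e1 : ∀ x, α * (ε * u (n + 1) x + F (u (n + 1)) x) = -((1 - α * ε) * a x - α * b x) :=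
      fun x => by
        have := e0 x
        simp only [ha, hb] at this ⊢
        linear_combination this
    have d0 : α ^ 2 * D n = ∫ x, a x ^ 2 ∂m := by
      simp only [D, ← integral_const_mul]
      congr 1; funext x; rw [e0]; ring
    have d1 : α ^ 2 * D (n + 1) = (1 - α * ε) ^ 2 * ∫ x, a x ^ 2 ∂m -
        2 * (1 - α * ε) * α * ∫ x, b x * a x ∂m + α ^ 2 * ∫ x, b x ^ 2 ∂m := by
      simp only [D, ← integral_const_mul]
      rw [← integral_sub (iaa.const_mul _) (iab.const_mul _), ← integral_add _ (ibb.const_mul _)]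
      · congr 1; funext x
        rw [← mul_pow, e1]; ring
      · exact (iaa.const_mul _).sub (iab.const_mul _)
    have h1 : 0 ≤ ∫ x, b x * a x ∂m := mono _ _ m1 b1 m0 b0
    have h2 : ∫ x, b x ^ 2 ∂m ≤ c * ∫ x, a x ^ 2 ∂m := lip _ _ m1 b1 m0 b0
    have h3 : 0 ≤ ∫ x, a x ^ 2 ∂m := integral_nonneg fun x => sq_nonneg _
    have h4 : (1 - α * ε) ^ 2 + c * α ^ 2 ≤ q := by
      have e : c * α ^ 2 = α * ε / 2 := by rw [sq, ← mul_assoc, mul_comm c, hαc]; ring
      rw [hq, e]
      nlinarith [mul_pos hα0 hε]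
    have h5 : 0 ≤ 2 * (1 - α * ε) * α * ∫ x, b x * a x ∂m :=
      mul_nonneg (mul_nonneg (by linarith) hα0.le) h1
    have h6 : α ^ 2 * D (n + 1) ≤ α ^ 2 * (q * D n) := by
      have := mul_le_mul_of_nonneg_left h2 (sq_nonneg α)
      have := mul_le_mul_of_nonneg_right h4 h3
      rw [mul_left_comm, d0, d1]
      nlinarith
    exact le_of_mul_le_mul_left h6 (by positivity)
  have geo : ∀ n, D n ≤ q ^ n * D 0 := fun n => by
    induction n with
    | zero => simp
    | succ n ih =>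
      rw [pow_succ', mul_assoc]
      exact (step n).trans (mul_le_mul_of_nonneg_left ih hq0)
  have lim := (tendsto_pow_atTop_nhds_zero_of_lt_one hq0 hq1).mul_const (D 0)
  rw [zero_mul] at lim
  obtain ⟨n, hn⟩ := (lim.eventually (ge_mem_nhds hδ)).exists
  exact ⟨u n, (hu n).1, (hu n).2, (geo n).trans hn⟩

/-- the block identity -/
theorem block_id (r : ℕ → ℝ) (L : ℕ) :
    ∑ i ∈ Finset.range L, r i * (2 * i - (L - 1)) =
      (∑ i ∈ Finset.range L, r i) * (L - ∑ i ∈ Finset.range L, r i) -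
        ∑ i ∈ Finset.range L, r i * (1 - r i) -
        2 * ∑ j ∈ Finset.range L, ∑ i ∈ Finset.range j, r i * (1 - r j) := by
  induction L with
  | zero => simp
  | succ L ih =>
    simp only [Finset.sum_range_succ]
    have e : ∑ i ∈ Finset.range L, r i * (2 * (i : ℝ) - ((L + 1 : ℕ) - 1)) =
        ∑ i ∈ Finset.range L, r i * (2 * i - (L - 1)) - ∑ i ∈ Finset.range L, r i := by
      rw [← Finset.sum_sub_distrib]
      refine Finset.sum_congr rfl fun i _ => ?_
      push_cast; ring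
    rw [e, ih, ← Finset.sum_mul]
    push_cast; ring

end Crest.Agent.H5.RI
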